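import Vale.Agent.P233.H719.RegCh8
import Vale.Agent.P233.H326.Fin3

open MeasureTheory Set Metric Vale.Agent Vale.Agent.P242.H373 Vale.Agent.P242.H719
open scoped ENNReal MeasureTheory

universe u

/-- Bi-Lipschitz charts in noncollapsed `RCD(K, n)` spaces `X` whose distributional sectional
curvature is bounded below. For every `n ≥ 2` there are `η > 0` and `L ≥ 1`, which depend only on
`n`, such that for all `K` and `κ`:
(a) if `B(p, r)` is `η r`-close to a Euclidean ball of radius `r` and `K r² ≥ -η`, `κ r² ≥ -η`, then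
`B(p, η r)` has an `L`-bi-Lipschitz homeomorphism to an open subset of `ℝⁿ`;
(b) every `n`-regular point has a neighbourhood with an `L`-bi-Lipschitz homeomorphism to an open
subset of `ℝⁿ`. -/
theorem Vale.Agent.Results.P242.SectionalCharts.result :
    ∀ n : ℕ, 2 ≤ n → ∃ η : ℝ, 0 < η ∧ ∃ L : ℝ, 1 ≤ L ∧
      ∀ (X : Type u) [MetricSpace X] [CompleteSpace X] [SecondCountableTopology X]
        [MeasurableSpace X] [BorelSpace X] (K κ : ℝ),
        (μH[(n : ℝ)] : Measure X).IsOpenPosMeasure →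
        P233.CD.IsRCD (μH[(n : ℝ)] : Measure X) K n →
        P233.T.DistSecGE (P233.T.sob (μH[(n : ℝ)] : Measure X)) κ →
        (∀ (p : X) (r : ℝ), 0 < r → -η ≤ K * r ^ 2 → -η ≤ κ * r ^ 2 → GHClose n η p r →
          BiLipChart n L (ball p (η * r))) ∧
        ∀ p : X, IsRegular n p → ∃ U : Set X, IsOpen U ∧ p ∈ U ∧ BiLipChart n L U := by
  intro n hn
  obtain ⟨η, hη, L₁, hL₁, H₁⟩ :=
    P233.RegCh.chart_sec.{u} P233.H326.Fin.finalCD P233.H326.Fin.blk_3b hn
  obtain ⟨L₂, hL₂, H₂⟩ :=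
    P233.RegCh.chart_regular.{u} P233.H326.Fin.finalCD P233.H326.Fin.blk_3b hn
  refine ⟨η, hη, max L₁ L₂, hL₁.trans (le_max_left _ _), ?_⟩
  intro X _ _ _ _ _ K κ hpos hK hκ
  refine ⟨fun p r hr h1 h2 h3 => ?_, fun p hp => ?_⟩
  · exact P233.RegCh.biLipChart_mono (by linarith) (le_max_left _ _)
      (H₁ X K κ hpos hK hκ p r hr h1 h2 h3)
  · obtain ⟨U, hU, hpU, hch⟩ := H₂ X K κ hpos hK hκ p hp
    exact ⟨U, hU, hpU, P233.RegCh.biLipChart_mono (by linarith) (le_max_right _ _) hch⟩
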